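import Vale.Agent.P096.Top3
import Vale.Agent.P096.Amp3
import Vale.Agent.P096.Site
import Vale.Agent.P096.Big
import Vale.Agent.P096.Full
import Vale.Agent.P096.Dix3
import Vale.Agent.P096.Step3
import Vale.Agent.P096.D3
import Vale.Agent.P096.E3
import Vale.Agent.P096.Cent
import Vale.Agent.P096.F1
import Vale.Agent.P096.F2
import Vale.Agent.P096.HB
import Vale.Agent.P096.VW
import Vale.Agent.P096.SA
import Vale.Agent.P096.I3
import Vale.Agent.P096.Gap
import Vale.Agent.P096.End
import Vale.Agent.P132.T1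
import Vale.Agent.P132.T2
import Vale.Agent.P132.BI

namespace Vale.Agent.Results.P096.All

open Vale.Agent.P096

universe u

theorem result : ∀ ε : ℝ, 0 < ε → ∃ δ : ℝ, 0 < δ ∧ ∀ (H : Type u) [NormedAddCommGroup H]
    [InnerProductSpace ℂ H] [CompleteSpace H] (M N : VonNeumannAlgebra H), kkDist M N < δ →
      ∃ u ∈ unitary (H →L[ℂ] H), ‖u - 1‖ < ε ∧
        (fun x => u * x * star u) '' (M : Set (H →L[ℂ] H)) = N :=
  gtop (iiiS (site ampS) bigS full dixS stepS dS eS
    (lS (Vale.Agent.P132.tt Vale.Agent.P132.t1 Vale.Agent.P132.bi Vale.Agent.P132.filt) (fS f1)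
      (vw hS cent) saS iS cent jS endS))

end Vale.Agent.Results.P096.All
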