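import Vale.Agent.P096.Top
import Vale.Agent.P096.Good
import Vale.Agent.P096.Sep
import Vale.Agent.P096.Ult
import Vale.Agent.P096.X
import Vale.Agent.P096.Newton

namespace Vale.Agent.Results.P096.AllSemifinite

open Vale.Agent.P096

universe u

theorem result : ∀ ε : ℝ, 0 < ε → ∃ δ : ℝ, 0 < δ ∧ ∀ (H : Type u) [NormedAddCommGroup H]
    [InnerProductSpace ℂ H] [CompleteSpace H] (M N : VonNeumannAlgebra H),
      IsSemifinite M → kkDist M N < δ →
      ∃ u ∈ unitary (H →L[ℂ] H), ‖u - 1‖ < ε ∧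
        (fun x => u * x * star u) '' (M : Set (H →L[ℂ] H)) = N :=
  top goodS (uS sepS (xS locS)) newtonS

end Vale.Agent.Results.P096.AllSemifinite
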