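import Vale.Agent.P096.All3
import Vale.Agent.P096.Full
import Vale.Agent.P096.Step3

namespace Vale.Agent.Results.P096.Strong

open Vale.Agent.P096

universe u

theorem result : ∀ ε : ℝ, 0 < ε → ∃ δ : ℝ, 0 < δ ∧ ∀ (H : Type u) [NormedAddCommGroup H]
    [InnerProductSpace ℂ H] [CompleteSpace H] (M N : VonNeumannAlgebra H), kkDist M N < δ →
      ∃ u ∈ unitary (H →L[ℂ] H), ‖u - 1‖ < ε ∧
        (fun x => u * x * star u) '' (M : Set (H →L[ℂ] H)) = N :=
  gtop (iiiA full stepS)

end Vale.Agent.Results.P096.Strong
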